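import Vale.Agent.P254.S.Iface

/-!
# P254, block S: entropy and covariance of the image of the Gaussian (S-ENT)
-/

open MeasureTheory Matrix ProbabilityTheory
open scoped Topology

noncomputable section

namespace Vale.Agent.P254.S332

open Vale.Agent.P227.M Vale.Agent.P254.S

variable {n : ℕ}

/-! ## one-dimensional Gaussian integrals -/

lemma int_exp : ∫ x : ℝ, Real.exp (-(x ^ 2) / 2) = Real.sqrt (2 * Real.pi) := by
  have h := integral_gaussian (1 / 2)
  have e1 : (fun x : ℝ => Real.exp (-(1 / 2) * x ^ 2)) = fun x : ℝ => Real.exp (-(x ^ 2) / 2) := by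
    funext x; congr 1; ring
  rw [e1] at h
  rw [h]
  congr 1
  ring

lemma integrable_exp1 : Integrable fun x : ℝ => Real.exp (-(x ^ 2) / 2) := by
  have h := integrable_exp_neg_mul_sq (b := 1 / 2) (by norm_num)
  refine h.congr (Filter.Eventually.of_forall fun x => ?_)
  show Real.exp (-(1 / 2) * x ^ 2) = Real.exp (-(x ^ 2) / 2)
  congr 1; ring

lemma integrable_sq_exp1 : Integrable fun x : ℝ => x ^ 2 * Real.exp (-(x ^ 2) / 2) := by
  have h := integrable_rpow_mul_exp_neg_mul_sq (b := 1 / 2) (by norm_num) (s := 2) (by norm_num)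
  refine h.congr (Filter.Eventually.of_forall fun x => ?_)
  show x ^ (2 : ℝ) * Real.exp (-(1 / 2) * x ^ 2) = x ^ 2 * Real.exp (-(x ^ 2) / 2)
  rw [Real.rpow_two]
  congr 2; ring

lemma int_sq_exp : ∫ x : ℝ, x ^ 2 * Real.exp (-(x ^ 2) / 2) = Real.sqrt (2 * Real.pi) := by
  have h1 : Var[id; gaussianReal 0 1] = ((1 : NNReal) : ℝ) := variance_id_gaussianReal
  have h2 : ∫ x, x ^ 2 ∂(gaussianReal 0 1) = 1 := by
    have h3 := variance_of_integral_eq_zero (μ := gaussianReal 0 1) (X := id)
      measurable_id.aemeasurable (by simp [integral_id_gaussianReal])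
    rw [h1] at h3
    simpa using h3.symm
  rw [integral_gaussianReal_eq_integral_smul (by norm_num)] at h2
  have h4 : ∀ x : ℝ, gaussianPDFReal 0 1 x • x ^ 2 =
      (Real.sqrt (2 * Real.pi))⁻¹ * (x ^ 2 * Real.exp (-(x ^ 2) / 2)) := by
    intro x
    rw [gaussianPDFReal, smul_eq_mul]
    simp only [NNReal.coe_one, mul_one, sub_zero]
    ring
  simp only [h4] at h2
  rw [integral_const_mul] at h2
  have h5 : Real.sqrt (2 * Real.pi) ≠ 0 := (Real.sqrt_pos.2 (by positivity)).ne'
  field_simp at h2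
  simpa only [neg_div] using h2

/-! ## the Gaussian on `E n` -/

lemma expQ_prod (z : E n) : Real.exp (-Q z) = ∏ i, Real.exp (-((z.ofLp i) ^ 2) / 2) := by
  rw [← Real.exp_sum, Q, Vale.Agent.P227.M.norm_sq_eq_sum]
  congr 1
  rw [Finset.sum_div, ← Finset.sum_neg_distrib]
  exact Finset.sum_congr rfl fun i _ => by ring

lemma integral_prod (g : Fin n → ℝ → ℝ) :
    ∫ z : E n, ∏ i, g i (z.ofLp i) = ∏ i, ∫ x, g i x := by
  rw [← integral_fintype_prod_volume_eq_prod]
  exact (PiLp.volume_preserving_ofLp (Fin n)).integral_comp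
    (MeasurableEquiv.toLp 2 (Fin n → ℝ)).symm.measurableEmbedding
    (fun x : Fin n → ℝ => ∏ i, g i (x i))

lemma integrable_prod (g : Fin n → ℝ → ℝ) (hg : ∀ i, Integrable (g i)) :
    Integrable fun z : E n => ∏ i, g i (z.ofLp i) :=
  (PiLp.volume_preserving_ofLp (Fin n)).integrable_comp_of_integrable
    (Integrable.fintype_prod hg)

lemma integral_expQ : ∫ z : E n, Real.exp (-Q z) = Real.sqrt (2 * Real.pi) ^ n := by
  simp only [expQ_prod]
  rw [integral_prod (fun _ x => Real.exp (-(x ^ 2) / 2))]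
  simp only [int_exp]
  simp

lemma integrable_expQ : Integrable fun z : E n => Real.exp (-Q z) := by
  simp only [expQ_prod]
  exact integrable_prod (fun _ x => Real.exp (-(x ^ 2) / 2)) fun _ => integrable_exp1

lemma sq_expQ (i : Fin n) (z : E n) : z.ofLp i ^ 2 * Real.exp (-Q z) =
    ∏ j, (if j = i then fun x : ℝ => x ^ 2 * Real.exp (-(x ^ 2) / 2)
      else fun x : ℝ => Real.exp (-(x ^ 2) / 2)) (z.ofLp j) := by
  rw [expQ_prod]
  rw [← Finset.mul_prod_erase Finset.univ (fun j => Real.exp (-((z.ofLp j) ^ 2) / 2))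
      (Finset.mem_univ i),
    ← Finset.mul_prod_erase Finset.univ (fun j => (if j = i then fun x : ℝ =>
      x ^ 2 * Real.exp (-(x ^ 2) / 2) else fun x : ℝ => Real.exp (-(x ^ 2) / 2)) (z.ofLp j))
      (Finset.mem_univ i), if_pos rfl, ← mul_assoc]
  congr 1
  refine Finset.prod_congr rfl fun j hj => ?_
  rw [if_neg (Finset.ne_of_mem_erase hj)]

lemma integrable_sq_expQ (i : Fin n) :
    Integrable fun z : E n => z.ofLp i ^ 2 * Real.exp (-Q z) := by
  simp only [sq_expQ]
  refine integrable_prod (fun j => if j = i then fun x : ℝ => x ^ 2 * Real.exp (-(x ^ 2) / 2)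
      else fun x : ℝ => Real.exp (-(x ^ 2) / 2)) fun j => ?_
  by_cases h : j = i
  · rw [if_pos h]; exact integrable_sq_exp1
  · rw [if_neg h]; exact integrable_exp1

lemma integral_sq_expQ (i : Fin n) :
    ∫ z : E n, z.ofLp i ^ 2 * Real.exp (-Q z) = Real.sqrt (2 * Real.pi) ^ n := by
  simp only [sq_expQ]
  rw [integral_prod (fun j => if j = i then fun x : ℝ => x ^ 2 * Real.exp (-(x ^ 2) / 2)
      else fun x : ℝ => Real.exp (-(x ^ 2) / 2))]
  have h : ∀ j : Fin n, ∫ x, (if j = i then fun x : ℝ => x ^ 2 * Real.exp (-(x ^ 2) / 2)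
      else fun x : ℝ => Real.exp (-(x ^ 2) / 2)) x = Real.sqrt (2 * Real.pi) := by
    intro j
    by_cases hj : j = i
    · simp only [if_pos hj]; exact int_sq_exp
    · simp only [if_neg hj]; exact int_exp
  simp only [h]
  simp

lemma Z_pos : 0 < ∫ z : E n, Real.exp (-Q z) := by
  rw [integral_expQ]
  exact pow_pos (Real.sqrt_pos.2 (by positivity)) n

lemma integrable_norm_sq_expQ : Integrable fun z : E n => ‖z‖ ^ 2 / 2 * Real.exp (-Q z) := by
  have e1 : (fun z : E n => ‖z‖ ^ 2 / 2 * Real.exp (-Q z)) =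
      fun z : E n => ∑ i, (1 / 2) * (z.ofLp i ^ 2 * Real.exp (-Q z)) := by
    funext z
    rw [← Finset.mul_sum, ← Finset.sum_mul, ← Vale.Agent.P227.M.norm_sq_eq_sum z]
    ring
  rw [e1]
  exact integrable_finsetSum _ fun i _ => (integrable_sq_expQ i).const_mul _

/-- `E |z|²/2 = n/2` -/
lemma Ex_norm_sq : Ex Q (fun z : E n => ‖z‖ ^ 2 / 2) = (n : ℝ) / 2 := by
  rw [Ex]
  have e1 : (fun z : E n => ‖z‖ ^ 2 / 2 * Real.exp (-Q z)) =
      fun z : E n => ∑ i, (1 / 2) * (z.ofLp i ^ 2 * Real.exp (-Q z)) := by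
    funext z
    rw [← Finset.mul_sum, ← Finset.sum_mul, ← Vale.Agent.P227.M.norm_sq_eq_sum z]
    ring
  rw [e1, integral_finsetSum _ fun i _ => (integrable_sq_expQ i).const_mul _]
  simp only [integral_const_mul, integral_sq_expQ, integral_expQ]
  have h := (pow_pos (Real.sqrt_pos.2 (by positivity : (0 : ℝ) < 2 * Real.pi)) n).ne'
  rw [Finset.sum_const, Finset.card_univ, Fintype.card_fin, nsmul_eq_mul]
  field_simp

/-! ## determinant bounds -/

lemma qf_dot (A : Matrix (Fin n) (Fin n) ℝ) (v : E n) : qf A v = v.ofLp ⬝ᵥ (A *ᵥ v.ofLp) := by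
  unfold qf
  rw [dotProduct]
  refine Finset.sum_congr rfl fun i _ => ?_
  rw [Matrix.mulVec, dotProduct, Finset.mul_sum]
  exact Finset.sum_congr rfl fun j _ => by ring

lemma eig_mem {A : Matrix (Fin n) (Fin n) ℝ} (hA : A.IsHermitian) {a b : ℝ}
    (h1 : ∀ v : E n, a * ‖v‖ ^ 2 ≤ qf A v) (h2 : ∀ v : E n, qf A v ≤ b * ‖v‖ ^ 2) (i : Fin n) :
    a ≤ hA.eigenvalues i ∧ hA.eigenvalues i ≤ b := by
  have e1 : hA.eigenvalues i = qf A (hA.eigenvectorBasis i) := by
    rw [hA.eigenvalues_eq i, qf_dot]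
    simp
  have e2 : ‖hA.eigenvectorBasis i‖ = 1 := hA.eigenvectorBasis.orthonormal.1 i
  have h3 := h1 (hA.eigenvectorBasis i)
  have h4 := h2 (hA.eigenvectorBasis i)
  rw [e2] at h3 h4
  rw [e1]
  constructor <;> linarith

lemma abs_log_det_le {A : Matrix (Fin n) (Fin n) ℝ} (hA : A.IsHermitian) {a b : ℝ} (ha : 0 < a)
    (h1 : ∀ v : E n, a * ‖v‖ ^ 2 ≤ qf A v) (h2 : ∀ v : E n, qf A v ≤ b * ‖v‖ ^ 2) :
    |Real.log A.det| ≤ n * (|Real.log a| + |Real.log b|) := by
  have e1 : A.det = ∏ i, hA.eigenvalues i := by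
    have := hA.det_eq_prod_eigenvalues
    simpa using this
  have hpos : ∀ i, 0 < hA.eigenvalues i := fun i => ha.trans_le (eig_mem hA h1 h2 i).1
  rw [e1, Real.log_prod (fun i _ => (hpos i).ne')]
  refine (Finset.abs_sum_le_sum_abs _ _).trans ?_
  have h3 : ∀ i ∈ (Finset.univ : Finset (Fin n)), |Real.log (hA.eigenvalues i)| ≤
      |Real.log a| + |Real.log b| := by
    intro i _
    have h4 := (eig_mem hA h1 h2 i)
    have h5 := Real.log_le_log ha h4.1
    have h6 := Real.log_le_log (hpos i) h4.2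
    rw [abs_le]
    constructor
    · linarith [neg_abs_le (Real.log a), abs_nonneg (Real.log b)]
    · linarith [le_abs_self (Real.log b), abs_nonneg (Real.log a)]
  refine (Finset.sum_le_sum h3).trans ?_
  rw [Finset.sum_const, Finset.card_univ, Fintype.card_fin, nsmul_eq_mul]

/-! ## S-ENT -/

section

variable {φ V : E n → ℝ} {a b M κ : ℝ}

lemma BP.hess_herm (h : BP φ V a b M κ) (z : E n) : (hess φ z).IsHermitian := by
  ext i j
  rw [Matrix.conjTranspose_apply, star_trivial]
  exact Vale.Agent.P227.M.hess_symm h.C2 z j i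

lemma BP.abs_log_det (h : BP φ V a b M κ) (z : E n) :
    |Real.log (hess φ z).det| ≤ n * (|Real.log a| + |Real.log b|) :=
  abs_log_det_le (BP.hess_herm h z) h.a_pos (h.lower z) (h.upper z)

lemma BP.det_pos (h : BP φ V a b M κ) (z : E n) : 0 < (hess φ z).det := by
  have hA := BP.hess_herm h z
  have e1 : (hess φ z).det = ∏ i, hA.eigenvalues i := by
    have := hA.det_eq_prod_eigenvalues
    simpa using this
  rw [e1]
  exact Finset.prod_pos fun i _ => h.a_pos.trans_le (eig_mem hA (h.lower z) (h.upper z) i).1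

lemma BP.posDef (h : BP φ V a b M κ) (z : E n) : (hess φ z).PosDef := by
  refine Matrix.PosDef.of_dotProduct_mulVec_pos (BP.hess_herm h z) fun v hv => ?_
  have h1 := h.lower z (WithLp.toLp 2 v)
  rw [qf_dot] at h1
  have h2 : 0 < ‖(WithLp.toLp 2 v : E n)‖ := by
    rw [norm_pos_iff]
    intro h0
    apply hv
    have := congrArg WithLp.ofLp h0
    simpa using this
  have h3 : 0 < a * ‖(WithLp.toLp 2 v : E n)‖ ^ 2 := mul_pos h.a_pos (pow_pos h2 2)
  simpa using h3.trans_le h1

lemma BP.continuous_log_det (h : BP φ V a b M κ) :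
    Continuous fun z => Real.log (hess φ z).det := by
  refine Continuous.log ?_ fun z => (BP.det_pos h z).ne'
  refine Continuous.matrix_det ?_
  refine continuous_matrix fun i j => ?_
  exact Vale.Agent.P227.M.continuous_hess h.C2 i j

lemma BP.integrable_log_det (h : BP φ V a b M κ) :
    Integrable fun z => Real.log (hess φ z).det * Real.exp (-Q z) := by
  refine integrable_expQ.bdd_mul (c := n * (|Real.log a| + |Real.log b|))
    (BP.continuous_log_det h).aestronglyMeasurable (Filter.Eventually.of_forall fun z => ?_)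
  rw [Real.norm_eq_abs]
  exact BP.abs_log_det h z

/-- **S-ENT** for one map -/
theorem ent_of_push (hP : StmtPush) (h : BP φ V a b M κ) :
    entV V = (n : ℝ) / 2 * Real.log (2 * Real.pi * Real.exp 1)
      + Ex Q (fun z => Real.log (hess φ z).det) := by
  obtain ⟨h1, -, h3⟩ := hP n φ V a b M κ h
  have hZ := Z_pos (n := n)
  have e1 : Ex V V = (n : ℝ) / 2 + Ex Q (fun z => Real.log (hess φ z).det) + κ := by
    rw [h1 V]
    have e2 : (fun z => V (gradient φ z)) =
        fun z => ‖z‖ ^ 2 / 2 + Real.log (hess φ z).det + κ := funext fun z => h.ma z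
    rw [e2, Ex]
    have e3 : (fun z : E n => (‖z‖ ^ 2 / 2 + Real.log (hess φ z).det + κ) * Real.exp (-Q z)) =
        fun z : E n => ‖z‖ ^ 2 / 2 * Real.exp (-Q z) +
          Real.log (hess φ z).det * Real.exp (-Q z) + κ * Real.exp (-Q z) := by
      funext z; ring
    have j1 : Integrable fun z : E n => ‖z‖ ^ 2 / 2 * Real.exp (-Q z) +
        Real.log (hess φ z).det * Real.exp (-Q z) :=
      integrable_norm_sq_expQ.add (BP.integrable_log_det h)
    rw [e3, integral_add j1 (integrable_expQ.const_mul κ),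
      integral_add integrable_norm_sq_expQ (BP.integrable_log_det h), integral_const_mul,
      add_div, add_div, mul_div_assoc, div_self hZ.ne', mul_one]
    have e4 := Ex_norm_sq (n := n)
    rw [Ex] at e4
    rw [e4]
    rfl
  have e5 : Real.log (∫ x, Real.exp (-V x)) = -κ + n / 2 * Real.log (2 * Real.pi) := by
    rw [h3, Real.log_mul (Real.exp_pos _).ne' hZ.ne', Real.log_exp, integral_expQ, Real.log_pow,
      Real.log_sqrt (by positivity)]
    ring
  rw [entV, e1, e5, Real.log_mul (by positivity) (Real.exp_pos 1).ne', Real.log_exp]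
  ring

end

/-- **S-ENT** -/
theorem stmtEnt_of (hP : StmtPush) : StmtEnt :=
  fun _ _ _ _ _ _ _ h => ent_of_push hP h

end Vale.Agent.P254.S332
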