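import Vale.Agent.P254.S.H332.Ent

/-!
# P254, block S: covariance of the image of the Gaussian (S-COV)

`covV V` is the Gaussian covariance of `∇φ`; it is positive definite and, when `E D²φ = 1`,
bounded by `(1 + E (D²φ)²) / 2`.  Continuity, bounds and integrability of `z ↦ F(D²φ z)`.
-/

open MeasureTheory Matrix
open scoped Topology

noncomputable section

namespace Vale.Agent.P254.S332

open Vale.Agent.P227.M Vale.Agent.P254.S

variable {n : ℕ}

/-! ## integrability against the Gaussian -/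

lemma continuous_Q : Continuous (Q (n := n)) := by
  unfold Q
  fun_prop

theorem integrable_grQ {f : E n → ℝ} (hf : Gr f) :
    Integrable (fun x => f x * Real.exp (-Q x)) := by
  obtain ⟨hfc, B, k, hB, hb⟩ := hf
  obtain ⟨D, hD, hd⟩ := growth_le_exp (a := 1 / 4) (by positivity) k
  have hi := (integrable_gauss (n := n) (a := 1 / 4) (by positivity)).const_mul (B * D)
  refine hi.mono' ?_ (Filter.Eventually.of_forall fun x => ?_)
  · exact (hfc.mul (Real.continuous_exp.comp continuous_Q.neg)).aestronglyMeasurable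
  · rw [norm_mul, Real.norm_eq_abs, Real.norm_eq_abs, Real.abs_exp]
    have h1 := hb x
    have h2 := hd ‖x‖ (norm_nonneg x)
    calc |f x| * Real.exp (-Q x)
        ≤ (B * (D * Real.exp (1 / 4 * ‖x‖ ^ 2))) * Real.exp (-Q x) :=
          mul_le_mul_of_nonneg_right (h1.trans (mul_le_mul_of_nonneg_left h2 hB))
            (Real.exp_pos _).le
      _ = B * D * (Real.exp (1 / 4 * ‖x‖ ^ 2) * Real.exp (-(‖x‖ ^ 2 / 2))) := by
          rw [Q]; ring
      _ = B * D * Real.exp (-(1 / 4) * ‖x‖ ^ 2) := by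
          rw [← Real.exp_add]
          congr 2
          ring

/-- linearity of the Gaussian expectation -/
lemma Ex_add {f g : E n → ℝ} (hf : Gr f) (hg : Gr g) :
    Ex Q (fun z => f z + g z) = Ex Q f + Ex Q g := by
  rw [Ex, Ex, Ex, ← add_div, ← integral_add (integrable_grQ hf) (integrable_grQ hg)]
  congr 2
  funext z
  ring

lemma Ex_const_mul (c : ℝ) (f : E n → ℝ) : Ex Q (fun z => c * f z) = c * Ex Q f := by
  rw [Ex, Ex, mul_div_assoc', ← integral_const_mul]
  congr 2
  funext z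
  ring

lemma Ex_sum {ι : Type*} (s : Finset ι) {f : ι → E n → ℝ} (hf : ∀ i ∈ s, Gr (f i)) :
    Ex Q (fun z => ∑ i ∈ s, f i z) = ∑ i ∈ s, Ex Q (f i) := by
  unfold Ex
  rw [← Finset.sum_div, ← integral_finsetSum _ fun i hi => integrable_grQ (hf i hi)]
  congr 2
  funext z
  rw [Finset.sum_mul]

lemma Ex_const (c : ℝ) : Ex (n := n) Q (fun _ => c) = c := by
  rw [Ex, integral_const_mul, mul_div_assoc, div_self Z_pos.ne', mul_one]

/-! ## the gradient and the Hessian -/

lemma grad_apply (φ : E n → ℝ) (z : E n) (i : Fin n) : (gradient φ z) i = pd i φ z := by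
  have h1 : inner ℝ (gradient φ z) (ei i) = fderiv ℝ φ z (ei i) := by
    rw [gradient, InnerProductSpace.toDual_symm_apply]
  rw [pd, ← h1, ei, EuclideanSpace.inner_single_right]
  simp

section

variable {φ V : E n → ℝ} {a b M κ : ℝ}

lemma norm_ei_add_sq {i j : Fin n} (hij : i ≠ j) (s : ℝ) (hs : s ^ 2 = 1) :
    ‖(ei i + s • ei j : E n)‖ ^ 2 = 2 := by
  rw [Vale.Agent.P227.M.norm_sq_eq_sum]
  have h : ∀ k, (ei i + s • ei j : E n) k ^ 2 =
      (if k = i then 1 else 0) + (if k = j then 1 else 0) := by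
    intro k
    have e : (ei i + s • ei j : E n) k = (if k = i then 1 else 0) + s * (if k = j then 1 else 0) := by
      simp [ei_apply]
    rw [e]
    by_cases h1 : k = i
    · have h2 : k ≠ j := fun h => hij (h1 ▸ h)
      simp [h1, hij]
    · by_cases h2 : k = j
      · have h3 : j ≠ i := fun h => h1 (h2 ▸ h)
        simp [h2, h3, hs]
      · simp [h1, h2]
  simp only [h, Finset.sum_add_distrib]
  simp
  norm_num

lemma qf_ei (A : Matrix (Fin n) (Fin n) ℝ) (i : Fin n) : qf A (ei i) = A i i := by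
  unfold qf
  simp [ei_apply]

lemma qf_ei_add (A : Matrix (Fin n) (Fin n) ℝ) (i j : Fin n) (s : ℝ) :
    qf A (ei i + s • ei j) = A i i + s * A i j + s * A j i + s ^ 2 * A j j := by
  have h : ∀ k, (ei i + s • ei j : E n).ofLp k =
      (if k = i then 1 else 0) + s * (if k = j then 1 else 0) := by
    intro k
    simp [ei_apply]
  unfold qf
  simp only [h]
  simp only [mul_add, add_mul, Finset.sum_add_distrib, mul_ite, ite_mul, mul_one, mul_zero,
    zero_mul, Finset.sum_ite_eq', Finset.mem_univ, if_true]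
  ring

lemma BP.abs_hess (h : BP φ V a b M κ) (z : E n) (i j : Fin n) : |hess φ z i j| ≤ b := by
  have hs := Vale.Agent.P227.M.hess_symm h.C2 z
  have hd : ∀ k, a ≤ hess φ z k k ∧ hess φ z k k ≤ b := by
    intro k
    have h1 := h.lower z (ei k)
    have h2 := h.upper z (ei k)
    rw [norm_ei, qf_ei] at h1 h2
    constructor <;> linarith
  have ha := h.a_pos
  by_cases hij : i = j
  · subst hij
    rw [abs_of_pos (ha.trans_le (hd i).1)]
    exact (hd i).2
  · have h1 := h.upper z (ei i + (1 : ℝ) • ei j)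
    have h2 := h.upper z (ei i + (-1 : ℝ) • ei j)
    rw [norm_ei_add_sq hij 1 (by norm_num), qf_ei_add, hs j i] at h1
    rw [norm_ei_add_sq hij (-1) (by norm_num), qf_ei_add, hs j i] at h2
    rw [abs_le]
    constructor <;> linarith [(hd i).1, (hd j).1]

lemma BP.gr_hess (h : BP φ V a b M κ) (i j : Fin n) : Gr (fun z => hess φ z i j) :=
  Gr.of_bound (Vale.Agent.P227.M.continuous_hess h.C2 i j) fun z => BP.abs_hess h z i j

lemma BP.fderiv_pd (_h : BP φ V a b M κ) (j : Fin n) (z w : E n) :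
    fderiv ℝ (pd j φ) z w = ∑ i, w i * hess φ z i j := by
  rw [Vale.Agent.P227.M.fderiv_eq_sum]
  rfl

lemma BP.norm_fderiv_pd (h : BP φ V a b M κ) (j : Fin n) (z : E n) :
    ‖fderiv ℝ (pd j φ) z‖ ≤ n * b := by
  have hb : 0 ≤ b := (abs_nonneg _).trans (BP.abs_hess h z j j)
  refine ContinuousLinearMap.opNorm_le_bound _ (by positivity) fun w => ?_
  rw [BP.fderiv_pd h, Real.norm_eq_abs]
  refine (Finset.abs_sum_le_sum_abs _ _).trans ?_
  have h1 : ∀ i ∈ (Finset.univ : Finset (Fin n)), |w i * hess φ z i j| ≤ b * ‖w‖ := by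
    intro i _
    rw [abs_mul, mul_comm]
    exact mul_le_mul (BP.abs_hess h z i j) (abs_coord_le w i) (abs_nonneg _) hb
  refine (Finset.sum_le_sum h1).trans (le_of_eq ?_)
  rw [Finset.sum_const, Finset.card_univ, Fintype.card_fin, nsmul_eq_mul]
  ring

lemma BP.gr_pd (h : BP φ V a b M κ) (j : Fin n) : Gr (pd j φ) := by
  have hc : ContDiff ℝ 1 (pd j φ) := contDiff_pd h.C2 (by norm_num) j
  have hd : Differentiable ℝ (pd j φ) := hc.differentiable (by norm_num)
  refine ⟨hc.continuous, |pd j φ 0| + |n * b|, 1, by positivity, fun x => ?_⟩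
  have h1 := (convex_univ : Convex ℝ (Set.univ : Set (E n))).norm_image_sub_le_of_norm_fderiv_le
    (f := pd j φ) (C := n * b) (x := 0) (y := x) (fun z _ => hd z)
    (fun z _ => BP.norm_fderiv_pd h j z) (Set.mem_univ _) (Set.mem_univ _)
  rw [sub_zero, Real.norm_eq_abs] at h1
  have h2 : |pd j φ x| ≤ |pd j φ 0| + |pd j φ x - pd j φ 0| := by
    calc |pd j φ x| = |pd j φ 0 + (pd j φ x - pd j φ 0)| := by rw [add_sub_cancel]
      _ ≤ _ := abs_add_le _ _
  have h3 := norm_nonneg x
  have h4 : n * b * ‖x‖ ≤ |n * b| * ‖x‖ := mul_le_mul_of_nonneg_right (le_abs_self _) h3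
  rw [pow_one]
  nlinarith [abs_nonneg (pd j φ 0), abs_nonneg (n * b)]

/-- `covV V` is the Gaussian covariance of `∇φ` -/
theorem cov_push (hP : StmtPush) (h : BP φ V a b M κ) (i j : Fin n) :
    covV V i j = Ex Q (fun z => pd i φ z * pd j φ z) - Ex Q (pd i φ) * Ex Q (pd j φ) := by
  obtain ⟨h1, -, -⟩ := hP n φ V a b M κ h
  rw [covV, h1, h1, h1]
  simp only [grad_apply]

/-- the linear combination `⟨v, ∇φ⟩` -/
def lc (φ : E n → ℝ) (v : Fin n → ℝ) (z : E n) : ℝ := ∑ j, v j * pd j φ z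

lemma BP.gr_lc (h : BP φ V a b M κ) (v : Fin n → ℝ) : Gr (lc φ v) :=
  Gr.sum _ fun j _ => (BP.gr_pd h j).const_mul _

theorem cov_quad (hP : StmtPush) (h : BP φ V a b M κ) (v : Fin n → ℝ) :
    v ⬝ᵥ (covV V *ᵥ v) = Ex Q (fun z => lc φ v z ^ 2) - (Ex Q (lc φ v)) ^ 2 := by
  have e1 : Ex Q (lc φ v) = ∑ j, v j * Ex Q (pd j φ) := by
    unfold lc
    rw [Ex_sum _ fun j _ => (BP.gr_pd h j).const_mul _]
    exact Finset.sum_congr rfl fun j _ => Ex_const_mul _ _
  have e2 : Ex Q (fun z => lc φ v z ^ 2) =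
      ∑ i, ∑ j, v i * v j * Ex Q (fun z => pd i φ z * pd j φ z) := by
    have e3 : (fun z => lc φ v z ^ 2) =
        fun z => ∑ i, ∑ j, v i * v j * (pd i φ z * pd j φ z) := by
      funext z
      rw [pow_two, lc, Finset.sum_mul_sum]
      exact Finset.sum_congr rfl fun i _ => Finset.sum_congr rfl fun j _ => by ring
    rw [e3, Ex_sum _ fun i _ => Gr.sum _ fun j _ =>
      ((BP.gr_pd h i).mul (BP.gr_pd h j)).const_mul _]
    refine Finset.sum_congr rfl fun i _ => ?_
    rw [Ex_sum _ fun j _ => ((BP.gr_pd h i).mul (BP.gr_pd h j)).const_mul _]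
    exact Finset.sum_congr rfl fun j _ => Ex_const_mul _ _
  rw [e1, e2, pow_two, Finset.sum_mul_sum, dotProduct]
  simp only [mulVec, dotProduct, Finset.mul_sum]
  rw [← Finset.sum_sub_distrib]
  refine Finset.sum_congr rfl fun i _ => ?_
  rw [← Finset.sum_sub_distrib]
  refine Finset.sum_congr rfl fun j _ => ?_
  rw [cov_push hP h]
  ring

/-- a continuous nonnegative function of polynomial growth, positive somewhere, has positive
expectation -/
lemma Ex_pos {f : E n → ℝ} (hf : Gr f) (h0 : ∀ z, 0 ≤ f z) {z₀ : E n} (hz : 0 < f z₀) :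
    0 < Ex Q f := by
  rw [Ex]
  refine div_pos ?_ Z_pos
  rw [integral_pos_iff_support_of_nonneg (fun z => mul_nonneg (h0 z) (Real.exp_pos _).le)
    (integrable_grQ hf)]
  have hopen : IsOpen (Function.support fun z : E n => f z * Real.exp (-Q z)) :=
    (hf.cont.mul (Real.continuous_exp.comp continuous_Q.neg)).isOpen_support
  exact hopen.measure_pos volume ⟨z₀, (mul_pos hz (Real.exp_pos _)).ne'⟩

lemma BP.lc_diff (h : BP φ V a b M κ) (v : Fin n → ℝ) : ContDiff ℝ 1 (lc φ v) := by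
  unfold lc
  exact ContDiff.sum fun j _ => contDiff_const.mul (contDiff_pd h.C2 (by norm_num) j)

lemma BP.pd_lc (h : BP φ V a b M κ) (v : Fin n → ℝ) (i : Fin n) (z : E n) :
    pd i (lc φ v) z = (hess φ z *ᵥ v) i := by
  have hd : ∀ j, DifferentiableAt ℝ (pd j φ) z := fun j =>
    ((contDiff_pd (k := 1) h.C2 (by norm_num) j).differentiable (by norm_num)) z
  have h1 : HasFDerivAt (lc φ v) (∑ j, v j • fderiv ℝ (pd j φ) z) z := by
    unfold lc
    exact HasFDerivAt.fun_sum fun j _ => (hd j).hasFDerivAt.const_mul (v j)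
  rw [pd, h1.fderiv, mulVec, dotProduct]
  simp only [_root_.sum_apply, _root_.smul_apply, smul_eq_mul]
  refine Finset.sum_congr rfl fun j _ => ?_
  rw [mul_comm]
  rfl

/-- strict monotonicity of `∇φ` -/
lemma BP.lc_lt (h : BP φ V a b M κ) {v : Fin n → ℝ} (hv : v ≠ 0) :
    lc φ v 0 < lc φ v (WithLp.toLp 2 v) := by
  set w : E n := WithLp.toLp 2 v with hw
  have hw0 : 0 < ‖w‖ := by
    rw [norm_pos_iff]
    intro h0
    apply hv
    have := congrArg WithLp.ofLp h0
    simpa [hw] using this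
  have hd : Differentiable ℝ (lc φ v) := (BP.lc_diff h v).differentiable (by norm_num)
  have hline : ∀ t : ℝ, HasDerivAt (fun t : ℝ => t • w) w t := fun t => by
    simpa using (hasDerivAt_id t).smul_const w
  have hg : ∀ t : ℝ, HasDerivAt (fun t : ℝ => lc φ v (t • w)) (fderiv ℝ (lc φ v) (t • w) w) t :=
    fun t => by
      have h2 := (hd (t • w)).hasFDerivAt
      exact HasFDerivAt.comp_hasDerivAt t h2 (hline t)
  have hval : ∀ t : ℝ, fderiv ℝ (lc φ v) (t • w) w = qf (hess φ (t • w)) w := by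
    intro t
    rw [Vale.Agent.P227.M.fderiv_eq_sum, qf_dot, dotProduct]
    refine Finset.sum_congr rfl fun i _ => ?_
    rw [BP.pd_lc h]
  have hpos : ∀ t : ℝ, 0 < deriv (fun t : ℝ => lc φ v (t • w)) t := by
    intro t
    rw [(hg t).deriv, hval]
    exact (mul_pos h.a_pos (pow_pos hw0 2)).trans_le (h.lower _ _)
  have hm := strictMono_of_deriv_pos hpos
  have := hm (zero_lt_one)
  simpa using this

theorem cov_posDef (hP : StmtPush) (h : BP φ V a b M κ) : (covV V).PosDef := by
  refine Matrix.PosDef.of_dotProduct_mulVec_pos ?_ fun v hv => ?_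
  · ext i j
    rw [Matrix.conjTranspose_apply, star_trivial, covV, covV]
    simp only [mul_comm]
  · have e0 : star v ⬝ᵥ (covV V *ᵥ v) = v ⬝ᵥ (covV V *ᵥ v) := by simp
    rw [e0, cov_quad hP h]
    set μ := Ex Q (lc φ v) with hμ
    have hg := BP.gr_lc h v
    have e1 : Ex Q (fun z => (lc φ v z - μ) ^ 2) = Ex Q (fun z => lc φ v z ^ 2) - μ ^ 2 := by
      have e2 : (fun z => (lc φ v z - μ) ^ 2) =
          fun z => (lc φ v z ^ 2 + (-2 * μ) * lc φ v z) + μ ^ 2 := by
        funext z; ring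
      rw [e2, Ex_add ((hg.pow 2).add (hg.const_mul _)) (Gr.const _),
        Ex_add (hg.pow 2) (hg.const_mul _), Ex_const_mul, Ex_const, ← hμ]
      ring
    rw [← e1]
    have hgr : Gr (fun z => (lc φ v z - μ) ^ 2) := (hg.sub (Gr.const μ)).pow 2
    have hlt := BP.lc_lt h hv
    by_cases h0 : lc φ v 0 = μ
    · refine Ex_pos hgr (fun z => sq_nonneg _) (z₀ := WithLp.toLp 2 v) ?_
      have : lc φ v (WithLp.toLp 2 v) - μ ≠ 0 := by
        rw [← h0]; exact (sub_pos.2 hlt).ne'
      positivity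
    · refine Ex_pos hgr (fun z => sq_nonneg _) (z₀ := 0) ?_
      have : lc φ v 0 - μ ≠ 0 := sub_ne_zero.2 h0
      positivity

/-- **S-COV** -/
theorem cov_le (hP : StmtPush) (hH : StmtHerm) (h : BP φ V a b M κ)
    (hE : ∀ i j, Ex Q (fun z => hess φ z i j) = if i = j then 1 else 0) (v : Fin n → ℝ) :
    v ⬝ᵥ (covV V *ᵥ v) ≤
      (v ⬝ᵥ v + v ⬝ᵥ ((fun i j => Ex Q (fun z => (hess φ z * hess φ z) i j) :
        Matrix (Fin n) (Fin n) ℝ) *ᵥ v)) / 2 := by
  rw [cov_quad hP h]
  have hb : ∀ x, ‖fderiv ℝ (lc φ v) x‖ ≤ ∑ j, |v j| * (n * b) := by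
    intro x
    have hd : ∀ j, DifferentiableAt ℝ (pd j φ) x := fun j =>
      ((contDiff_pd (k := 1) h.C2 (by norm_num) j).differentiable (by norm_num)) x
    have h1 : HasFDerivAt (lc φ v) (∑ j, v j • fderiv ℝ (pd j φ) x) x := by
      unfold lc
      exact HasFDerivAt.fun_sum fun j _ => (hd j).hasFDerivAt.const_mul (v j)
    rw [h1.fderiv]
    refine (norm_sum_le _ _).trans (Finset.sum_le_sum fun j _ => ?_)
    rw [norm_smul, Real.norm_eq_abs]
    exact mul_le_mul_of_nonneg_left (BP.norm_fderiv_pd h j x) (abs_nonneg _)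
  have h1 := hH n (lc φ v) _ (BP.lc_diff h v) hb
  have e1 : ∀ i, Ex Q (fun z => pd i (lc φ v) z) = v i := by
    intro i
    have e2 : (fun z => pd i (lc φ v) z) = fun z => ∑ j, v j * hess φ z i j := by
      funext z
      rw [BP.pd_lc h, mulVec, dotProduct]
      exact Finset.sum_congr rfl fun j _ => mul_comm _ _
    rw [e2, Ex_sum _ fun j _ => (BP.gr_hess h i j).const_mul _]
    simp only [Ex_const_mul, hE]
    simp
  have e3 : Ex Q (fun z => ∑ i, (pd i (lc φ v) z) ^ 2) =
      v ⬝ᵥ ((fun i j => Ex Q (fun z => (hess φ z * hess φ z) i j) :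
        Matrix (Fin n) (Fin n) ℝ) *ᵥ v) := by
    have hs := fun z => Vale.Agent.P227.M.hess_isSymm h.C2 z
    have e4 : (fun z => ∑ i, (pd i (lc φ v) z) ^ 2) =
        fun z => ∑ i, ∑ j, v i * v j * (hess φ z * hess φ z) i j := by
      funext z
      simp only [BP.pd_lc h]
      have e5 : ∑ i, ((hess φ z *ᵥ v) i) ^ 2 = v ⬝ᵥ ((hess φ z * hess φ z) *ᵥ v) := by
        have e6 : (hess φ z)ᵀ = hess φ z := hs z
        rw [← Matrix.mulVec_mulVec, Matrix.dotProduct_mulVec, ← Matrix.mulVec_transpose, e6,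
          dotProduct]
        exact Finset.sum_congr rfl fun i _ => pow_two _
      rw [e5, dotProduct]
      simp only [mulVec, dotProduct, Finset.mul_sum]
      exact Finset.sum_congr rfl fun i _ => Finset.sum_congr rfl fun j _ => by ring
    have hg : ∀ i j, Gr (fun z => (hess φ z * hess φ z) i j) := by
      intro i j
      have : (fun z => (hess φ z * hess φ z) i j) = fun z => ∑ k, hess φ z i k * hess φ z k j := by
        funext z; rw [Matrix.mul_apply]
      rw [this]
      exact Gr.sum _ fun k _ => (BP.gr_hess h i k).mul (BP.gr_hess h k j)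
    rw [e4, Ex_sum _ fun i _ => Gr.sum _ fun j _ => (hg i j).const_mul _]
    simp only [dotProduct, mulVec, Finset.mul_sum]
    refine Finset.sum_congr rfl fun i _ => ?_
    rw [Ex_sum _ fun j _ => (hg i j).const_mul _]
    refine Finset.sum_congr rfl fun j _ => ?_
    rw [Ex_const_mul]
    ring
  simp only [e1] at h1
  rw [e3] at h1
  have e7 : v ⬝ᵥ v = ∑ i, v i ^ 2 := by
    rw [dotProduct]; exact Finset.sum_congr rfl fun i _ => (pow_two _).symm
  rw [e7]
  linarith

end

end Vale.Agent.P254.S332
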