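import Vale.Agent.P254.S.H332.Cov

/-!
# P254, block S: the functional calculus of `D²φ` is continuous, bounded and integrable

Also the Gaussian probability measure `PG n` with `∫ f dPG = Ex Q f`.
-/

open MeasureTheory Matrix
open scoped Topology

noncomputable section

namespace Vale.Agent.P254.S332

open Vale.Agent.P227.M Vale.Agent.P254.S

variable {n : ℕ}

lemma fc_apply (U : E n → Matrix (Fin n) (Fin n) ℝ) (m : E n → Fin n → ℝ) (F : ℝ → ℝ) (z : E n)
    (i j : Fin n) : fc U m F z i j = ∑ k, U z i k * F (m z k) * U z j k := by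
  rw [fc, Matrix.mul_apply]
  refine Finset.sum_congr rfl fun k _ => ?_
  rw [Matrix.mul_diagonal, Matrix.transpose_apply]

section

variable {W : E n → Matrix (Fin n) (Fin n) ℝ} {U : E n → Matrix (Fin n) (Fin n) ℝ}
  {m : E n → Fin n → ℝ}

lemma Spec.orth' (h : Spec W U m) (z : E n) : (U z).transpose * U z = 1 :=
  mul_eq_one_comm.1 (h.orth z)

lemma abs_U_le (h : Spec W U m) (z : E n) (i k : Fin n) : |U z i k| ≤ 1 := by
  have h1 := congrFun (congrFun (h.orth z) i) i
  rw [Matrix.mul_apply, Matrix.one_apply_eq] at h1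
  have h2 : U z i k * (U z).transpose k i ≤ ∑ l, U z i l * (U z).transpose l i :=
    Finset.single_le_sum (f := fun l => U z i l * (U z).transpose l i)
      (fun l _ => by rw [Matrix.transpose_apply]; exact mul_self_nonneg _) (Finset.mem_univ k)
  rw [h1, Matrix.transpose_apply] at h2
  rw [abs_le]
  constructor <;> nlinarith

lemma fc_sub_le (h : Spec W U m) {F G : ℝ → ℝ} {ε : ℝ}
    (hFG : ∀ z k, |F (m z k) - G (m z k)| ≤ ε) (z : E n) (i j : Fin n) :
    |fc U m F z i j - fc U m G z i j| ≤ n * ε := by
  rw [fc_apply, fc_apply, ← Finset.sum_sub_distrib]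
  refine (Finset.abs_sum_le_sum_abs _ _).trans ?_
  have h1 : ∀ k ∈ (Finset.univ : Finset (Fin n)),
      |U z i k * F (m z k) * U z j k - U z i k * G (m z k) * U z j k| ≤ ε := by
    intro k _
    have e : U z i k * F (m z k) * U z j k - U z i k * G (m z k) * U z j k =
        U z i k * (F (m z k) - G (m z k)) * U z j k := by ring
    rw [e, abs_mul, abs_mul]
    have h2 := abs_U_le h z i k
    have h3 := abs_U_le h z j k
    have h4 := hFG z k
    calc |U z i k| * |F (m z k) - G (m z k)| * |U z j k|
        ≤ 1 * |F (m z k) - G (m z k)| * 1 := by gcongr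
      _ ≤ ε := by linarith
  refine (Finset.sum_le_sum h1).trans (le_of_eq ?_)
  rw [Finset.sum_const, Finset.card_univ, Fintype.card_fin, nsmul_eq_mul]

lemma fc_bound (h : Spec W U m) {F : ℝ → ℝ} {B : ℝ} (hF : ∀ z k, |F (m z k)| ≤ B) (z : E n)
    (i j : Fin n) : |fc U m F z i j| ≤ n * B := by
  have h1 := fc_sub_le h (F := F) (G := fun _ => 0) (ε := B)
    (fun z k => by simpa using hF z k) z i j
  have h2 : fc U m (fun _ => 0) z i j = 0 := by
    rw [fc_apply]; simp
  rwa [h2, sub_zero] at h1

/-- powers of the matrix -/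
lemma fc_pow (h : Spec W U m) (l : ℕ) (z : E n) : fc U m (fun x => x ^ l) z = W z ^ l := by
  induction l with
  | zero =>
    rw [pow_zero, fc]
    simp only [pow_zero]
    rw [Matrix.diagonal_one, Matrix.mul_one, h.orth]
  | succ l ih =>
    rw [pow_succ, ← ih, h.dec z, fc, fc]
    calc U z * diagonal (fun k => m z k ^ (l + 1)) * (U z).transpose
        = U z * (diagonal (fun k => m z k ^ l) * diagonal (m z)) * (U z).transpose := by
          rw [Matrix.diagonal_mul_diagonal]
          simp only [pow_succ]
      _ = U z * (diagonal (fun k => m z k ^ l) * ((U z).transpose * U z) * diagonal (m z)) *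
            (U z).transpose := by rw [Spec.orth' h, Matrix.mul_one]
      _ = _ := by simp only [Matrix.mul_assoc]

lemma continuous_pow_entry (hW : ∀ i j, Continuous fun z => W z i j) (l : ℕ) (i j : Fin n) :
    Continuous fun z => (W z ^ l) i j := by
  induction l generalizing i j with
  | zero => simp only [pow_zero]; exact continuous_const
  | succ l ih =>
    simp only [pow_succ, Matrix.mul_apply]
    exact continuous_finsetSum _ fun k _ => (ih i k).mul (hW k j)

lemma fc_poly (h : Spec W U m) (hW : ∀ i j, Continuous fun z => W z i j) (p : Polynomial ℝ)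
    (i j : Fin n) : Continuous fun z => fc U m (fun x => p.eval x) z i j := by
  have e : (fun z => fc U m (fun x => p.eval x) z i j) =
      fun z => ∑ l ∈ Finset.range (p.natDegree + 1), p.coeff l * (W z ^ l) i j := by
    funext z
    have e2 : ∀ l, (W z ^ l) i j = ∑ k, U z i k * m z k ^ l * U z j k := by
      intro l
      rw [← fc_pow h, fc_apply]
    simp only [e2, Finset.mul_sum]
    rw [Finset.sum_comm, fc_apply]
    refine Finset.sum_congr rfl fun k _ => ?_
    rw [Polynomial.eval_eq_sum_range, Finset.mul_sum, Finset.sum_mul]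
    refine Finset.sum_congr rfl fun l _ => ?_
    ring
  rw [e]
  exact continuous_finsetSum _ fun l _ => continuous_const.mul (continuous_pow_entry hW l i j)

/-- the functional calculus is continuous in the base point -/
theorem fc_continuous (h : Spec W U m) (hW : ∀ i j, Continuous fun z => W z i j) {a b : ℝ}
    (hm : ∀ z k, m z k ∈ Set.Icc a b) {F : ℝ → ℝ} (hF : ContinuousOn F (Set.Icc a b))
    (i j : Fin n) : Continuous fun z => fc U m F z i j := by
  choose q hq using fun l : ℕ => exists_polynomial_near_of_continuousOn a b F hF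
    (1 / ((l : ℝ) + 1)) (by positivity)
  have hu : TendstoUniformly (fun (l : ℕ) z => fc U m (fun x => (q l).eval x) z i j)
      (fun z => fc U m F z i j) Filter.atTop := by
    rw [Metric.tendstoUniformly_iff]
    intro ε hε
    have h1 : Filter.Tendsto (fun l : ℕ => (n : ℝ) * (1 / ((l : ℝ) + 1))) Filter.atTop (𝓝 0) := by
      simpa using tendsto_one_div_add_atTop_nhds_zero_nat.const_mul (n : ℝ)
    filter_upwards [h1.eventually (gt_mem_nhds hε)] with l hl z
    rw [dist_comm, Real.dist_eq]
    refine lt_of_le_of_lt ?_ hl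
    exact fc_sub_le h (fun z k => (hq l _ (hm z k)).le) z i j
  exact hu.continuous (Filter.Frequently.of_forall fun l => fc_poly h hW (q l) i j)

end

section

variable {φ V : E n → ℝ} {a b M κ : ℝ} {U : E n → Matrix (Fin n) (Fin n) ℝ}
  {m : E n → Fin n → ℝ}

/-- the eigenvalues of `D²φ` lie in `[a, b]` -/
lemma eig_Icc (h : BP φ V a b M κ) (hS : Spec (hess φ) U m) (z : E n) (k : Fin n) :
    m z k ∈ Set.Icc a b := by
  set v : E n := WithLp.toLp 2 (fun i => U z i k) with hv
  have hn : ‖v‖ ^ 2 = 1 := by
    rw [Vale.Agent.P227.M.norm_sq_eq_sum]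
    have h1 := congrFun (congrFun (Spec.orth' hS z) k) k
    rw [Matrix.mul_apply, Matrix.one_apply_eq] at h1
    rw [← h1]
    refine Finset.sum_congr rfl fun i _ => ?_
    rw [Matrix.transpose_apply]
    change (U z i k) ^ 2 = _
    ring
  have hq : qf (hess φ z) v = m z k := by
    rw [qf_dot, hS.dec z]
    have e1 : (U z).transpose *ᵥ (v.ofLp) = Pi.single k 1 := by
      funext l
      have h1 := congrFun (congrFun (Spec.orth' hS z) l) k
      rw [Matrix.mul_apply] at h1
      rw [mulVec, dotProduct]
      change ∑ i, (U z).transpose l i * U z i k = _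
      rw [h1, Matrix.one_apply, Pi.single_apply]
    rw [← Matrix.mulVec_mulVec, ← Matrix.mulVec_mulVec, e1, Matrix.dotProduct_mulVec,
      ← Matrix.mulVec_transpose, e1]
    simp
  have h1 := h.lower z v
  have h2 := h.upper z v
  rw [hn, hq] at h1 h2
  constructor <;> linarith

lemma eig_pos (h : BP φ V a b M κ) (hS : Spec (hess φ) U m) (z : E n) (k : Fin n) :
    0 < m z k := h.a_pos.trans_le (eig_Icc h hS z k).1

/-- `F(D²φ)` is continuous and bounded -/
theorem fc_gr (h : BP φ V a b M κ) (hS : Spec (hess φ) U m) {F : ℝ → ℝ}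
    (hF : ContinuousOn F (Set.Ioi 0)) (i j : Fin n) : Gr (fun z => fc U m F z i j) := by
  have hI : Set.Icc a b ⊆ Set.Ioi 0 := fun x hx => h.a_pos.trans_le hx.1
  have hc : ContinuousOn F (Set.Icc a b) := hF.mono hI
  obtain ⟨B, hB⟩ := (isCompact_Icc (a := a) (b := b)).exists_bound_of_continuousOn hc
  refine Gr.of_bound (fc_continuous hS
    (fun i j => Vale.Agent.P227.M.continuous_hess h.C2 i j) (eig_Icc h hS) hc i j) (B := n * B)
    fun z => ?_
  exact fc_bound hS (fun z k => hB _ (eig_Icc h hS z k)) z i j

end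

/-! ## the Gaussian probability measure -/

/-- the Gaussian probability measure -/
def PG (n : ℕ) : Measure (E n) :=
  volume.withDensity fun z => ENNReal.ofReal (Real.exp (-Q z) / ∫ x : E n, Real.exp (-Q x))

lemma dens_meas : Measurable fun z : E n =>
    ENNReal.ofReal (Real.exp (-Q z) / ∫ x : E n, Real.exp (-Q x)) :=
  (((Real.continuous_exp.comp continuous_Q.neg).measurable).div_const _).ennreal_ofReal

theorem isProb_PG : IsProbabilityMeasure (PG n) := by
  constructor
  rw [PG, withDensity_apply _ MeasurableSet.univ, Measure.restrict_univ,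
    ← ofReal_integral_eq_lintegral_ofReal (integrable_expQ.div_const _)
      (Filter.Eventually.of_forall fun z => div_nonneg (Real.exp_pos _).le Z_pos.le),
    integral_div, div_self Z_pos.ne', ENNReal.ofReal_one]

theorem integral_PG (f : E n → ℝ) : ∫ z, f z ∂(PG n) = Ex Q f := by
  rw [PG, integral_withDensity_eq_integral_toReal_smul dens_meas
    (Filter.Eventually.of_forall fun z => ENNReal.ofReal_lt_top), Ex, ← integral_div]
  congr 1
  funext z
  rw [ENNReal.toReal_ofReal (div_nonneg (Real.exp_pos _).le Z_pos.le), smul_eq_mul]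
  ring

theorem integrable_PG {f : E n → ℝ} (hf : Integrable fun z => f z * Real.exp (-Q z)) :
    Integrable f (PG n) := by
  rw [PG, integrable_withDensity_iff_integrable_smul' dens_meas
    (Filter.Eventually.of_forall fun z => ENNReal.ofReal_lt_top)]
  refine (hf.div_const (∫ x : E n, Real.exp (-Q x))).congr (Filter.Eventually.of_forall fun z => ?_)
  beta_reduce
  rw [ENNReal.toReal_ofReal (div_nonneg (Real.exp_pos _).le Z_pos.le), smul_eq_mul]
  ring

theorem integrable_PG_gr {f : E n → ℝ} (hf : Gr f) : Integrable f (PG n) :=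
  integrable_PG (integrable_grQ hf)

/-- a spectral field exists -/
theorem exists_spec {φ V : E n → ℝ} {a b M κ : ℝ} (h : BP φ V a b M κ) :
    ∃ (U : E n → Matrix (Fin n) (Fin n) ℝ) (m : E n → Fin n → ℝ), Spec (hess φ) U m := by
  refine ⟨fun z => ((BP.hess_herm h z).eigenvectorUnitary : Matrix (Fin n) (Fin n) ℝ),
    fun z => (BP.hess_herm h z).eigenvalues, ⟨fun z => ?_, fun z => ?_⟩⟩
  · have h1 : star ((BP.hess_herm h z).eigenvectorUnitary : Matrix (Fin n) (Fin n) ℝ) =
        ((BP.hess_herm h z).eigenvectorUnitary : Matrix (Fin n) (Fin n) ℝ).transpose := by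
      rw [Matrix.star_eq_conjTranspose, Matrix.conjTranspose_eq_transpose_of_trivial]
    rw [← h1]
    exact Unitary.coe_mul_star_self _
  · have h1 : star ((BP.hess_herm h z).eigenvectorUnitary : Matrix (Fin n) (Fin n) ℝ) =
        ((BP.hess_herm h z).eigenvectorUnitary : Matrix (Fin n) (Fin n) ℝ).transpose := by
      rw [Matrix.star_eq_conjTranspose, Matrix.conjTranspose_eq_transpose_of_trivial]
    have h2 := (BP.hess_herm h z).spectral_theorem
    rw [← h1]
    simpa [Unitary.conjStarAlgAut_apply, Function.comp_def] using h2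

end Vale.Agent.P254.S332
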